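/-
helper51 -- S0356 squad (track D), leaf S5: the prism over the slanted facet of the corner
simplex `Tset (Fin n)`, by symmetry.

`Φ x = Function.update x m (1 - ∑ i, x i)` (any `m : Fin n`) is an affine involution of
`Fin n → ℝ`; its linear part is the identity matrix with row `m` replaced by `-1`, of
determinant `-1` (Cramer), so `Φ` preserves Lebesgue measure.  It preserves `Tset`, maps the
slanted facet `∑ x = 1` onto the coordinate facet `x m = 0`, and `Φ (x - t • u) = Φ x - t • Φ₀ u`.
-/
import Crest.Agent.Helper28.S0356.Defs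

set_option autoImplicit false
open MeasureTheory
open scoped ENNReal Pointwise

namespace Crest.Agent.Helper51.S0356

open Crest.Agent.Helper28.S0355 (sweep Z)
open Crest.Agent.Helper28.S0356

variable {n : ℕ}

/-- The identity matrix with row `m` replaced by `-1`. -/
noncomputable def flipMatS (m : Fin n) : Matrix (Fin n) (Fin n) ℝ :=
  Matrix.updateRow 1 m (fun _ => -1)

theorem flipMatS_det (m : Fin n) : (flipMatS m).det = -1 := by
  unfold flipMatS
  rw [← Matrix.cramer_transpose_apply, Matrix.transpose_one, Matrix.cramer_one]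
  simp

/-- The linear part of the involution. -/
def flipLinS (m : Fin n) (x : Fin n → ℝ) : Fin n → ℝ :=
  Function.update x m (- ∑ i, x i)

theorem flipMatS_mulVec (m : Fin n) (x : Fin n → ℝ) :
    (flipMatS m).mulVec x = flipLinS m x := by
  ext i
  by_cases hi : i = m
  · subst hi
    simp [flipMatS, flipLinS, Matrix.mulVec, dotProduct]
  · simp [flipMatS, flipLinS, Matrix.mulVec, hi, Matrix.updateRow_ne, Matrix.one_apply, dotProduct]

theorem flipLinS_apply_self (m : Fin n) (x : Fin n → ℝ) :
    flipLinS m x m = - ∑ i, x i := by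
  simp [flipLinS]

theorem flipLinS_apply_ne (m : Fin n) (x : Fin n → ℝ) (i : Fin n) (hi : i ≠ m) :
    flipLinS m x i = x i := by
  simp [flipLinS, hi]

theorem flipLinS_sub_smul (m : Fin n) (x u : Fin n → ℝ) (t : ℝ) :
    flipLinS m (x - t • u) = flipLinS m x - t • flipLinS m u := by
  ext i
  by_cases hi : i = m
  · subst hi
    simp only [flipLinS_apply_self, Pi.sub_apply, Pi.smul_apply, smul_eq_mul,
      Finset.sum_sub_distrib, ← Finset.mul_sum]
    ring
  · simp [flipLinS_apply_ne _ _ _ hi]

/-- Lebesgue measure is invariant under `x ↦ flipLinS m x + c`. -/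
theorem volume_preimage_flipS (m : Fin n) (c : Fin n → ℝ) (T : Set (Fin n → ℝ)) :
    volume ((fun x : Fin n → ℝ => flipLinS m x + c) ⁻¹' T) = volume T := by
  have h1 : (fun x : Fin n → ℝ => flipLinS m x + c) ⁻¹' T
      = (Matrix.toLin' (flipMatS m)) ⁻¹' ((fun y : Fin n → ℝ => y + c) ⁻¹' T) := by
    ext x
    simp [Matrix.toLin'_apply, flipMatS_mulVec]
  have hdet : LinearMap.det (Matrix.toLin' (flipMatS m)) = -1 := by
    rw [LinearMap.det_toLin', flipMatS_det]
  rw [h1, Measure.addHaar_preimage_linearMap volume (by rw [hdet]; norm_num), hdet,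
    measure_preimage_add_right]
  simp

theorem lcS_inr_eq (x : Fin n → ℝ) : lcS (Sum.inr ()) x = ∑ i, x i := rfl

/-- The affine involution. -/
def flipS (m : Fin n) (x : Fin n → ℝ) : Fin n → ℝ := flipLinS m x + Pi.single m 1

theorem flipS_apply_self (m : Fin n) (x : Fin n → ℝ) :
    flipS m x m = 1 - ∑ i, x i := by
  simp [flipS, flipLinS_apply_self]; ring

theorem flipS_apply_ne (m : Fin n) (x : Fin n → ℝ) (i : Fin n) (hi : i ≠ m) :
    flipS m x i = x i := by
  simp [flipS, flipLinS_apply_ne _ _ _ hi, hi]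

theorem sum_flipS (m : Fin n) (x : Fin n → ℝ) :
    ∑ i, flipS m x i = 1 - x m := by
  rw [← Finset.add_sum_erase _ _ (Finset.mem_univ m), flipS_apply_self,
    ← Finset.add_sum_erase _ (fun i => x i) (Finset.mem_univ m)]
  have : ∑ i ∈ Finset.univ.erase m, flipS m x i = ∑ i ∈ Finset.univ.erase m, x i :=
    Finset.sum_congr rfl fun i hi => flipS_apply_ne m x i (Finset.ne_of_mem_erase hi)
  rw [this]; ring

theorem flipS_mem_Tset (m : Fin n) (x : Fin n → ℝ) :
    flipS m x ∈ Tset (Fin n) ↔ x ∈ Tset (Fin n) := by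
  simp only [Tset, Set.mem_ofPred_eq, sum_flipS]
  constructor
  · rintro ⟨h0, h1⟩
    refine ⟨fun i => ?_, ?_⟩
    · by_cases hi : i = m
      · subst hi; linarith
      · have := h0 i; rwa [flipS_apply_ne m x i hi] at this
    · have := h0 m; rw [flipS_apply_self] at this; linarith
  · rintro ⟨h0, h1⟩
    refine ⟨fun i => ?_, ?_⟩
    · by_cases hi : i = m
      · subst hi; rw [flipS_apply_self]; linarith
      · rw [flipS_apply_ne m x i hi]; exact h0 i
    · have := h0 m; linarith

theorem flipS_mem_facetS (m : Fin n) (x : Fin n → ℝ) :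
    flipS m x ∈ facetS (Sum.inl m) ↔ x ∈ facetS (Sum.inr ()) := by
  simp only [facetS, Set.mem_ofPred_eq, flipS_mem_Tset]
  have : lcS (Sum.inl m) (flipS m x) = bcS (Sum.inl m : Fin n ⊕ Unit) ↔
      lcS (Sum.inr ()) x = bcS (Sum.inr () : Fin n ⊕ Unit) := by
    show - flipS m x m = 0 ↔ ∑ i, x i = 1
    rw [flipS_apply_self]
    constructor <;> intro h <;> linarith
  rw [this]

theorem flipS_sub_smul (m : Fin n) (x u : Fin n → ℝ) (t : ℝ) :
    flipS m (x - t • u) = flipS m x - t • flipLinS m u := by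
  unfold flipS
  rw [flipLinS_sub_smul]
  abel

theorem sweep_facetS_inr_eq (m : Fin n) (u : Fin n → ℝ) :
    sweep (facetS (Sum.inr ())) u
      = (fun x : Fin n → ℝ => flipLinS m x + Pi.single m 1) ⁻¹'
          sweep (facetS (Sum.inl m)) (flipLinS m u) := by
  ext x
  simp only [sweep, Set.mem_ofPred_eq, Set.mem_preimage]
  constructor
  · rintro ⟨t, ht, h⟩
    refine ⟨t, ht, ?_⟩
    have := (flipS_mem_facetS m (x - t • u)).2 h
    rwa [flipS_sub_smul] at this
  · rintro ⟨t, ht, h⟩
    refine ⟨t, ht, ?_⟩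
    apply (flipS_mem_facetS m (x - t • u)).1
    rw [flipS_sub_smul]
    exact h

/-- **Leaf S5.** The prism over the slanted facet of the corner simplex. -/
theorem volume_sweep_facetS_inr {n : ℕ}
    (hC : ∀ (v : Fin n → ℝ) (j : Fin n), v j < 0 →
      volume (sweep (facetS (Sum.inl j)) v) = ENNReal.ofReal (- v j / ((n - 1).factorial : ℝ)))
    (u : Fin n → ℝ) (h : 0 < lcS (Sum.inr ()) u) :
    volume (sweep (facetS (Sum.inr ())) u) =
      ENNReal.ofReal (lcS (Sum.inr ()) u / ((n - 1).factorial : ℝ)) := by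
  have hn : 0 < n := by
    rcases Nat.eq_zero_or_pos n with h0 | h0
    · subst h0
      simp [lcS_inr_eq] at h
    · exact h0
  let m : Fin n := ⟨0, hn⟩
  rw [sweep_facetS_inr_eq m, volume_preimage_flipS m]
  have hneg : flipLinS m u m < 0 := by
    rw [flipLinS_apply_self, ← lcS_inr_eq]; linarith
  rw [hC _ _ hneg, flipLinS_apply_self, neg_neg, ← lcS_inr_eq]

end Crest.Agent.Helper51.S0356
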